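import Vale.Agent.P317.Final

namespace Vale.Agent.Results.P317.FPRAS

open Vale.Agent.P317

theorem result : ∃ A, IsFPRAS A := exists_fpras

end Vale.Agent.Results.P317.FPRAS
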